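import Vale.Agent.P195.E.T

namespace Vale.Agent.P195.E

open Module

variable {k : Type} [Field k] {X : Pack k}

section gen
variable {B : Type} [Ring B] {L M N Q : Type} [AddCommGroup L] [Module B L] [AddCommGroup M]
  [Module B M] [AddCommGroup N] [Module B N] [AddCommGroup Q] [Module B Q]

theorem desc {i : L →ₗ[B] M} {p : M →ₗ[B] N} (h : Function.Exact i p) (hp : Function.Surjective p)
    (g : M →ₗ[B] Q) (hg : ∀ y, g (i y) = 0) : ∃ ψ : N →ₗ[B] Q, ∀ x, ψ (p x) = g x := by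
  have hk : LinearMap.ker p ≤ LinearMap.ker g := by
    intro x hx
    obtain ⟨y, rfl⟩ := (h x).1 hx
    exact hg y
  refine ⟨(LinearMap.ker p).liftQ g hk ∘ₗ (p.quotKerEquivOfSurjective hp).symm.toLinearMap,
    fun x => ?_⟩
  have : (p.quotKerEquivOfSurjective hp).symm (p x) = Submodule.Quotient.mk x := by
    rw [LinearEquiv.symm_apply_eq]; rfl
  simp [this]

theorem corestr {i : L →ₗ[B] M} {p : M →ₗ[B] N} (h : Function.Exact i p)
    (hi : Function.Injective i) (g : Q →ₗ[B] M) (hg : ∀ x, p (g x) = 0) :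
    ∃ ψ : Q →ₗ[B] L, ∀ x, i (ψ x) = g x := by
  refine ⟨(LinearEquiv.ofInjective i hi).symm.toLinearMap ∘ₗ
    g.codRestrict (LinearMap.range i) (fun x => (h _).1 (hg x)), fun x => ?_⟩
  exact congrArg Subtype.val ((LinearEquiv.ofInjective i hi).apply_symm_apply
    (g.codRestrict (LinearMap.range i) (fun x => (h _).1 (hg x)) x))

theorem liftP [Module.Projective B Q] {p : M →ₗ[B] N} (hp : Function.Surjective p)
    (g : Q →ₗ[B] N) : ∃ ψ : Q →ₗ[B] M, ∀ x, p (ψ x) = g x := by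
  obtain ⟨ψ, hψ⟩ := Module.projective_lifting_property p g hp
  exact ⟨ψ, fun x => LinearMap.congr_fun hψ x⟩

end gen

theorem trace_proj (hX : X.BData) {Q : Type} [AddCommGroup Q] [Module X.R Q] [Module k Q]
    [IsScalarTower k X.R Q] [Module.Projective X.R Q] [Module.Finite X.R Q] (f : Q →ₗ[X.R] Q) :
    LinearMap.trace k Q (f.restrictScalars k) = 0 := by
  have : FiniteDimensional k Q := Module.Finite.trans X.R Q
  obtain ⟨n, x, l, hl⟩ := exists_dual_basis X.R Q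
  have h1 : f.restrictScalars k = ∑ i, ((LinearMap.toSpanSingleton X.R Q (f (x i))).restrictScalars
      k) ∘ₗ ((l i).restrictScalars k) := by
    ext v
    simp only [LinearMap.restrictScalars_apply, LinearMap.sum_apply, LinearMap.comp_apply,
      LinearMap.toSpanSingleton_apply]
    conv_lhs => rw [← hl v, map_sum]
    simp
  rw [h1, map_sum]
  refine Finset.sum_eq_zero fun i _ => ?_
  rw [LinearMap.trace_comp_comm', ← hX.tr (l i (f (x i)))]
  congr 1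
  ext b
  simp

variable (X) in
/-- maps from `Y (n+1)` to `N` extend over `P n` -/
def Van (n : ℕ) (N : Type) [AddCommGroup N] [Module X.R N] : Prop :=
  ∀ f : X.Y (n + 1) →ₗ[X.R] N, ∃ g : X.P n →ₗ[X.R] N, ∀ y, g (X.inc n y) = f y

theorem van_proj (hX : X.BData) {n : ℕ} (hn : n ≠ 3) (Q : Type) [AddCommGroup Q] [Module X.R Q]
    [Module.Projective X.R Q] [Module.Finite X.R Q] : Van X n Q := by
  intro f
  obtain ⟨m, x, l, hl⟩ := exists_dual_basis X.R Q
  choose g hg using fun i => hX.vB n hn (l i ∘ₗ f)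
  refine ⟨∑ i, (LinearMap.toSpanSingleton X.R Q (x i)) ∘ₗ g i, fun y => ?_⟩
  rw [← hl (f y), LinearMap.sum_apply]
  refine Finset.sum_congr rfl fun i _ => ?_
  have := LinearMap.congr_fun (hg i) y
  simp only [LinearMap.comp_apply] at this
  simp [this]

theorem hom0_proj (hX : X.BData) (Q : Type) [AddCommGroup Q] [Module X.R Q]
    [Module.Projective X.R Q] [Module.Finite X.R Q] (f : X.Y 0 →ₗ[X.R] Q) (y : X.Y 0) :
    f y = 0 := by
  obtain ⟨m, x, l, hl⟩ := exists_dual_basis X.R Q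
  rw [← hl (f y)]
  refine Finset.sum_eq_zero fun i _ => ?_
  have := LinearMap.congr_fun (hX.v0 (l i ∘ₗ f)) y
  simp only [LinearMap.comp_apply, LinearMap.zero_apply] at this
  simp [this]

theorem van_P (hX : X.BData) {n j : ℕ} (h : ¬ (n = 3 ∧ j = 0)) : Van X n (X.P j) := by
  by_cases hn : n = 3
  · subst hn
    obtain ⟨j, rfl⟩ : ∃ i, j = i + 1 := ⟨j - 1, by omega⟩
    intro f
    obtain ⟨g, hg⟩ := hX.vP j f
    exact ⟨g, fun y => LinearMap.congr_fun hg y⟩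
  · exact van_proj hX hn _

variable (X) in
/-- every map `Y n → Y j` lifts to `P j` up to a multiple of `ψ0` -/
def Lf (n j : ℕ) (ψ0 : X.Y n →ₗ[X.R] X.Y j) : Prop :=
  ∀ ψ : X.Y n →ₗ[X.R] X.Y j, ∃ (c : k) (χ : X.Y n →ₗ[X.R] X.P j),
    ∀ y, ψ y = c • ψ0 y + X.pr j (χ y)

theorem Lf.step {n j : ℕ} (hV : Van X n (X.P j)) (G0 : X.P n →ₗ[X.R] X.P j)
    {ψ0 : X.Y n →ₗ[X.R] X.Y j} {φ0 : X.Y (n + 1) →ₗ[X.R] X.Y (j + 1)}
    (h1 : ∀ x, X.pr j (G0 x) = ψ0 (X.pr n x)) (h2 : ∀ y, G0 (X.inc n y) = X.inc j (φ0 y))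
    (hyp : Lf X n j ψ0) : Lf X (n + 1) (j + 1) φ0 := by
  intro φ
  obtain ⟨g, hg⟩ := hV (X.inc j ∘ₗ φ)
  obtain ⟨ψ, hψ⟩ := desc (X.exact n) (X.pr_surj n) (X.pr j ∘ₗ g) (fun y => by simp [hg])
  obtain ⟨c, χ, hχ⟩ := hyp ψ
  obtain ⟨g', hg'⟩ := corestr (X.exact j) (X.inc_inj j) (g - c • G0 - χ ∘ₗ X.pr n) (fun x => by
    have e1 := hψ x
    have e2 := hχ (X.pr n x)
    simp only [LinearMap.comp_apply] at e1
    simp only [LinearMap.sub_apply, LinearMap.smul_apply, LinearMap.comp_apply, map_sub,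
      LinearMap.map_smul_of_tower, h1, ← e1, e2]
    abel)
  obtain ⟨g'', hg''⟩ := liftP (X.pr_surj (j + 1)) g'
  refine ⟨c, g'' ∘ₗ X.inc n, fun y => X.inc_inj j ?_⟩
  rw [LinearMap.comp_apply, hg'', map_add, hg']
  simp [hg, h2]

theorem Lf_up (hX : X.BData) (i : ℕ) : ∀ n, Lf X n (i + 1 + n) 0
  | 0 => fun ψ => ⟨0, 0, fun y => X.inc_inj i (by
      simpa using hom0_proj hX _ (X.inc i ∘ₗ ψ) y)⟩
  | n + 1 => Lf.step (van_P hX (n := n) (j := i + 1 + n) (by omega)) 0 (by simp) (by simp)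
      (Lf_up hX i n)

theorem Lf_down (hX : X.BData) : ∀ n, Lf X (n + 1) n 0
  | 0 => fun ψ => ⟨0, 0, fun y => by
      obtain ⟨a, rfl⟩ := X.pr_surj _ y
      simpa using LinearMap.congr_fun (hX.hS 0 (ψ ∘ₗ X.pr 1)) a⟩
  | n + 1 => Lf.step (van_P hX (by omega)) 0 (by simp) (by simp) (Lf_down hX n)

theorem end_Y0 (hX : X.BData) (ψ : X.Y 0 →ₗ[X.R] X.Y 0) : ∃ c : k, ∀ y, ψ y = c • y := by
  obtain ⟨c, hc⟩ := LinearMap.existsUnique_eq_smul_id_of_finrank_eq_one hX.rank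
    (ψ.restrictScalars k) |>.exists
  exact ⟨c, fun y => LinearMap.congr_fun hc y⟩

theorem Lf_diag (hX : X.BData) : ∀ n, Lf X n n LinearMap.id
  | 0 => fun ψ => by
      obtain ⟨c, hc⟩ := end_Y0 hX ψ
      exact ⟨c, 0, fun y => by simp [hc]⟩
  | n + 1 => Lf.step (van_P hX (by omega)) LinearMap.id (by simp) (by simp) (Lf_diag hX n)

theorem liftV {n j : ℕ} {ψ0 : X.Y n →ₗ[X.R] X.Y j} (h : Lf X n j ψ0)
    (F0 : V X n →ₗ[X.R] V X j) (hF0 : ∀ y, (F0 (y, 0)).1 = ψ0 y) (f : V X n →ₗ[X.R] V X j) :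
    ∃ (c : k) (g : V X n →ₗ[X.R] PP X j), ∀ v, f v = c • F0 v + prE j (g v) := by
  obtain ⟨c, χ, hχ⟩ := h (LinearMap.fst _ _ _ ∘ₗ f ∘ₗ LinearMap.inl _ _ _)
  obtain ⟨χ', hχ'⟩ := liftP (X.pr_surj j)
    (LinearMap.fst _ _ _ ∘ₗ (f - c • F0) ∘ₗ LinearMap.inr _ _ _)
  refine ⟨c, LinearMap.inl _ _ _ ∘ₗ
    pair (χ.coprod χ') (LinearMap.snd _ _ _ ∘ₗ (f - c • F0)), ?_⟩
  rintro ⟨y, t⟩
  have e1 := hχ y
  have e2 := hχ' t
  have e3 : ∀ F : V X n →ₗ[X.R] V X j, F (y, t) = F (y, 0) + F (0, t) := fun F => by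
    rw [← map_add]; simp
  simp only [LinearMap.comp_apply, LinearMap.inl_apply, LinearMap.inr_apply, LinearMap.fst_apply,
    LinearMap.sub_apply, LinearMap.smul_apply, Prod.fst_sub, Prod.smul_fst] at e1 e2
  refine Prod.ext ?_ (by simp [prE_apply])
  simp only [prE_apply, LinearMap.comp_apply, LinearMap.inl_apply, map_zero, add_zero,
    Prod.fst_add, Prod.smul_fst, π_fst, hd_pair, LinearMap.coprod_apply, map_add, e2]
  rw [e3 f, e3 F0, Prod.fst_add, Prod.fst_add, e1, hF0, smul_add]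
  abel

theorem b1B (hX : X.BData) (j : ℕ) (hj : j ≠ 1) (f : V X 6 →ₗ[X.R] V X (j + 5)) :
    ∃ g : V X 6 →ₗ[X.R] PP X (j + 5), ∀ v, prE (j + 5) (g v) = f v := by
  have h : Lf X 6 (j + 5) 0 := by
    rcases j with _ | _ | j
    · exact Lf_down hX 5
    · exact absurd rfl hj
    · exact Lf_up hX j 6
  obtain ⟨c, g, hg⟩ := liftV h 0 (by simp) f
  exact ⟨g, fun v => by simp [hg]⟩

theorem b2B (hX : X.BData) (f : V X 6 →ₗ[X.R] V X 6) :
    ∃ (c : k) (g : V X 6 →ₗ[X.R] PP X 6), ∀ v, f v = c • v + prE 6 (g v) :=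
  liftV (Lf_diag hX 6) LinearMap.id (by simp) f

theorem extB {n : ℕ} {N : Type} [AddCommGroup N] [Module X.R N] (h : Van X n N)
    (f : V X (n + 1) →ₗ[X.R] N) : ∃ g : PP X n →ₗ[X.R] N, ∀ v, g (incE n v) = f v := by
  obtain ⟨g1, hg1⟩ := h (f ∘ₗ LinearMap.inl _ _ _)
  refine ⟨(g1 ∘ₗ hd n).coprod (f ∘ₗ LinearMap.inr _ _ _), ?_⟩
  rintro ⟨y, t⟩
  simp only [LinearMap.coprod_apply, LinearMap.comp_apply, incE_fst, incE_snd, hd_δ, hg1,
    LinearMap.inl_apply, LinearMap.inr_apply]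
  rw [← map_add]; simp

theorem finrank_Y [CharP k 2] (hX : X.BData) : ∀ n, (finrank k (X.Y n) : k) = 1
  | 0 => by simp [hX.rank]
  | n + 1 => by
    have ih := finrank_Y hX n
    have h1 := trace_proj hX (LinearMap.id : X.P n →ₗ[X.R] X.P n)
    rw [LinearMap.restrictScalars_id, LinearMap.trace_id] at h1
    have h2 := LinearMap.finrank_range_add_finrank_ker ((X.pr n).restrictScalars k)
    have h3 : LinearMap.range ((X.pr n).restrictScalars k) = ⊤ :=
      LinearMap.range_eq_top.2 (X.pr_surj n)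
    have h4 : LinearMap.ker ((X.pr n).restrictScalars k) =
        LinearMap.range ((X.inc n).restrictScalars k) := by
      ext x; exact X.exact n x
    rw [h3, h4, finrank_top,
      LinearMap.finrank_range_of_inj (f := (X.inc n).restrictScalars k) (X.inc_inj n)] at h2
    rw [← h2, Nat.cast_add, ih] at h1
    linear_combination h1 - aa k (1 : k)

theorem trace_V [CharP k 2] (hX : X.BData) (n : ℕ) (s : T X n →ₗ[X.R] T X n) :
    LinearMap.trace k (V X n)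
      ((LinearMap.prodMap (LinearMap.id : X.Y n →ₗ[X.R] X.Y n) s).restrictScalars k) = 1 := by
  have : (LinearMap.prodMap (LinearMap.id : X.Y n →ₗ[X.R] X.Y n) s).restrictScalars k =
      LinearMap.prodMap (LinearMap.id : X.Y n →ₗ[k] X.Y n) (s.restrictScalars k) := rfl
  rw [this, LinearMap.trace_prodMap', trace_proj hX, LinearMap.trace_id, finrank_Y hX, add_zero]

end Vale.Agent.P195.E
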