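import Vale.Agent.P195.E.BLevel

namespace Vale.Agent.P195.E

open Module

variable {k : Type} [Field k] {X : Pack k}

section gen
variable {B : Type} [Ring B] [Algebra k B] {L M N Q : Type} [AddCommGroup L] [Module B L]
  [Module k L] [IsScalarTower k B L] [AddCommGroup M] [Module B M] [Module k M]
  [IsScalarTower k B M] [AddCommGroup N] [Module B N] [Module k N] [IsScalarTower k B N]
  [AddCommGroup Q] [Module B Q] [Module k Q] [IsScalarTower k B Q]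

/-- `f z = c z f` -/
def Tw (c : k) (zM : M →ₗ[B] M) (zN : N →ₗ[B] N) (f : M →ₗ[B] N) : Prop :=
  ∀ x, f (zM x) = c • zN (f x)

theorem Tw.add {c : k} {zM : M →ₗ[B] M} {zN : N →ₗ[B] N} {f g : M →ₗ[B] N}
    (hf : Tw c zM zN f) (hg : Tw c zM zN g) : Tw c zM zN (f + g) := fun x => by
  simp [hf x, hg x]

theorem Tw.smul {c : k} {zM : M →ₗ[B] M} {zN : N →ₗ[B] N} {f : M →ₗ[B] N} (d : k)
    (hf : Tw c zM zN f) : Tw c zM zN (d • f) := fun x => by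
  simp [hf x, smul_comm d c]

theorem Tw.zero (c : k) (zM : M →ₗ[B] M) (zN : N →ₗ[B] N) : Tw c zM zN 0 := fun x => by simp

theorem Tw.comp {c d : k} {zL : L →ₗ[B] L} {zM : M →ₗ[B] M} {zN : N →ₗ[B] N} {f : M →ₗ[B] N}
    {g : L →ₗ[B] M} (hf : Tw c zM zN f) (hg : Tw d zL zM g) : Tw (d * c) zL zN (f ∘ₗ g) :=
  fun x => by simp [hg x, hf _, smul_smul]

theorem Tw.comp1 {c : k} {zL : L →ₗ[B] L} {zM : M →ₗ[B] M} {zN : N →ₗ[B] N} {f : M →ₗ[B] N}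
    {g : L →ₗ[B] M} (hf : Tw c zM zN f) (hg : Tw (1 : k) zL zM g) : Tw c zL zN (f ∘ₗ g) := by
  simpa using hf.comp hg

theorem Tw.comp2 {c : k} {zL : L →ₗ[B] L} {zM : M →ₗ[B] M} {zN : N →ₗ[B] N} {f : M →ₗ[B] N}
    {g : L →ₗ[B] M} (hf : Tw (1 : k) zM zN f) (hg : Tw c zL zM g) : Tw c zL zN (f ∘ₗ g) := by
  simpa using hf.comp hg

theorem Tw.of_surj {c : k} {zL : L →ₗ[B] L} {zM : M →ₗ[B] M} {zN : N →ₗ[B] N} {ψ : M →ₗ[B] N}
    {p : L →ₗ[B] M} {g : L →ₗ[B] N} (hp : Function.Surjective p) (hz : Tw (1 : k) zL zM p)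
    (hg : Tw c zL zN g) (h : ∀ x, ψ (p x) = g x) : Tw c zM zN ψ := fun y => by
  obtain ⟨x, rfl⟩ := hp y
  have := hz x
  rw [one_smul] at this
  rw [← this, h, h, hg]

theorem Tw.of_inj {c : k} {zL : L →ₗ[B] L} {zM : M →ₗ[B] M} {zN : N →ₗ[B] N} {ψ : L →ₗ[B] M}
    {i : M →ₗ[B] N} {g : L →ₗ[B] N} (hi : Function.Injective i) (hz : Tw (1 : k) zM zN i)
    (hg : Tw c zL zN g) (h : ∀ x, i (ψ x) = g x) : Tw c zL zM ψ := fun y => by
  apply hi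
  rw [h, hg, LinearMap.map_smul_of_tower, hz, h, one_smul]

theorem liftInd [Module.Projective B Q] {c : k} {zM : M →ₗ[B] M} {zN : N →ₗ[B] N}
    (hzM : ∀ x, zM (zM x) = 0) {p : M →ₗ[B] N} (hp : Function.Surjective p)
    (hz : Tw (1 : k) zM zN p) (a : Q × Q →ₗ[B] N) (ha : Tw c (zI B Q) zN a) :
    ∃ a' : Q × Q →ₗ[B] M, Tw c (zI B Q) zM a' ∧ ∀ x, p (a' x) = a x := by
  obtain ⟨α, hα⟩ := liftP hp (a ∘ₗ LinearMap.inl _ _ _)
  refine ⟨α.coprod (c • zM ∘ₗ α), fun x => by simp [hzM], ?_⟩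
  rintro ⟨u, w⟩
  have e : a (u, w) = a (u, 0) + a (zI B Q (w, 0)) := by rw [← map_add]; simp
  simp [e, ha _, hz _, hα, -zI_apply]

/-- the twisted map to an induced module with a given second component -/
def toInd (c : k) (zM : M →ₗ[B] M) (u : M →ₗ[B] Q) : M →ₗ[B] Q × Q := (c⁻¹ • u ∘ₗ zM).prod u

@[simp] theorem toInd_snd (c : k) (zM : M →ₗ[B] M) (u : M →ₗ[B] Q) (x : M) :
    (toInd c zM u x).2 = u x := rfl

theorem Tw_toInd {c : k} (hc : c ≠ 0) {zM : M →ₗ[B] M} (hz : ∀ x, zM (zM x) = 0)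
    (u : M →ₗ[B] Q) : Tw c zM (zI B Q) (toInd c zM u) := fun x => by
  simp [toInd, hz, smul_smul, hc]

theorem Tw.ext_snd {c : k} (hc : c ≠ 0) {zM : M →ₗ[B] M} {f g : M →ₗ[B] Q × Q}
    (hf : Tw c zM (zI B Q) f) (hg : Tw c zM (zI B Q) g) (h : ∀ x, (f x).2 = (g x).2) (x : M) :
    f x = g x := by
  refine Prod.ext ?_ (h x)
  have h1 := h (zM x)
  rw [hf, hg] at h1
  simpa [hc] using h1

end gen

variable (H : k)

theorem Tw_prE (n : ℕ) : Tw (1 : k) (zP n) (zV n) (prE (X := X) n) := fun x => by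
  rw [prE_z, one_smul]

theorem Tw_incE (n : ℕ) : Tw (1 : k) (zV (n + 1)) (zP n) (incE (X := X) n) := fun x => by
  rw [incE_z, one_smul]

theorem Tw_sP (n : ℕ) : Tw H (zP n) (zP n) (sP (X := X) H n) := sP_zP H n

theorem Tw_sV (n : ℕ) : Tw H (zV n) (zV n) (sV (X := X) H n) := sV_zV H n

theorem zP_zP (n : ℕ) (x : PP X n) : zP n (zP n x) = 0 := rfl

/-- cone vanishing in degree `n + 2`, extension form -/
def CocE (n : ℕ) {N : Type} [AddCommGroup N] [Module X.R N] [Module k N]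
    (zN sN : N →ₗ[X.R] N) (gen : V X (n + 1) →ₗ[X.R] N) : Prop :=
  ∀ (h : V X (n + 2) →ₗ[X.R] N) (a : PP X (n + 1) →ₗ[X.R] N), Tw (1 : k) (zV _) zN h →
    Tw H (zP _) zN a → (∀ v, sN (h v) + h (sV H _ v) = a (incE _ v)) →
    ∃ (c : k) (h' : PP X (n + 1) →ₗ[X.R] N) (a' : PP X n →ₗ[X.R] N), Tw (1 : k) (zP _) zN h' ∧
      Tw H (zP _) zN a' ∧ (∀ v, h' (incE _ v) = h v) ∧
      ∀ x, a x = sN (h' x) + h' (sP H _ x) + a' (incE n (prE (n + 1) x)) +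
        c • gen (prE (n + 1) x)

/-- cone vanishing in degree `n + 1`, lifting form -/
def CocL (n j : ℕ) (gen : V X n →ₗ[X.R] V X j) : Prop :=
  ∀ (h : V X (n + 1) →ₗ[X.R] V X j) (a : PP X n →ₗ[X.R] V X j), Tw (1 : k) (zV _) (zV _) h →
    Tw H (zP _) (zV _) a → (∀ v, sV H j (h v) + h (sV H _ v) = a (incE _ v)) →
    ∃ (c : k) (h' : PP X n →ₗ[X.R] V X j) (b : V X n →ₗ[X.R] PP X j),
      Tw (1 : k) (zP _) (zV _) h' ∧ Tw H (zV _) (zP _) b ∧ (∀ v, h' (incE _ v) = h v) ∧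
      ∀ x, a x = sV H j (h' x) + h' (sP H _ x) + prE j (b (prE n x)) + c • gen (prE n x)

variable {H}

theorem CocE.toL {n j : ℕ} {gen : V X (n + 1) →ₗ[X.R] V X j}
    (hE : CocE H n (zV j) (sV H j) gen) : CocL H (n + 1) j gen := by
  intro h a hh ha hc
  obtain ⟨c, h', a', h1, h2, h3, h4⟩ := hE h a hh ha hc
  obtain ⟨a'', h5, h6⟩ := liftInd (zP_zP j) (prE_surj j) (Tw_prE j) a' h2
  exact ⟨c, h', a'' ∘ₗ incE n, h1, h5.comp1 (Tw_incE n), h3, fun x => by simp [h4, h6]⟩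

theorem cocE_ind [CharP k 2] (hH0 : H ≠ 0) (hH : ∀ n : ℕ, 1 + H ^ (n + 1) ≠ 0) (n j : ℕ) :
    CocE (X := X) H n (zP j) (sP H j) 0 := by
  intro h a hh ha hc
  obtain ⟨ρ, hρ1, hρ2⟩ := exists_inv (X := X) H hH (j + 1) 0
  simp only [pow_zero, one_smul] at hρ1 hρ2
  have key : ∀ (m : ℕ) (w : V X (m + 1) →ₗ[X.R] T X (j + 1)),
      ∃ κ : PP X m →ₗ[X.R] T X (j + 1), ∀ v, w (sV H _ v) = w v + κ (incE m v) := by
    intro m w
    refine ⟨w ∘ₗ LinearMap.inr _ _ _ ∘ₗ (sT H (m + 1) - LinearMap.id) ∘ₗ LinearMap.snd _ _ _,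
      fun v => ?_⟩
    simp only [LinearMap.comp_apply, ← map_add]
    congr 1
    exact Prod.ext (by simp) (by simp)
  let u : V X (n + 2) →ₗ[X.R] T X (j + 1) := LinearMap.snd _ _ _ ∘ₗ h
  let α : PP X (n + 1) →ₗ[X.R] T X (j + 1) := LinearMap.snd _ _ _ ∘ₗ a
  have hc' : ∀ v, sT H (j + 1) (u v) + u (sV H _ v) = α (incE _ v) := fun v =>
    congrArg Prod.snd (hc v)
  obtain ⟨κ, hκ⟩ := key _ u
  let u1 : PP X (n + 1) →ₗ[X.R] T X (j + 1) := ρ ∘ₗ (α + κ)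
  have hu1 : ∀ v, u1 (incE _ v) = u v := by
    intro v
    rw [← hρ1 (u v)]
    simp only [u1, LinearMap.comp_apply, LinearMap.add_apply]
    congr 1
    linear_combination (norm := abel) aa k (κ (incE _ v)) - hc' v + hκ v
  obtain ⟨β, hβ⟩ := desc (exactE (n + 1)) (prE_surj (n + 1))
    (α + sT H (j + 1) ∘ₗ u1 + u1 ∘ₗ sP H (n + 1)) (fun v => by
      simp only [LinearMap.add_apply, LinearMap.comp_apply, ← incE_s, hu1]
      linear_combination (norm := abel) aa k (α (incE _ v)) + hc' v)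
  obtain ⟨κ', hκ'⟩ := key _ (ρ ∘ₗ β)
  let u' : PP X (n + 1) →ₗ[X.R] T X (j + 1) := u1 + ρ ∘ₗ β ∘ₗ prE (n + 1)
  have t1 := Tw_toInd (one_ne_zero (α := k)) (zP_zP (X := X) (n + 1)) u'
  have t2 := Tw_toInd hH0 (zP_zP (X := X) n) κ'
  refine ⟨0, _, _, t1, t2, ?_, ?_⟩
  · refine Tw.ext_snd one_ne_zero (t1.comp1 (Tw_incE _)) hh fun v => ?_
    simp only [LinearMap.comp_apply, toInd_snd, u', LinearMap.add_apply, prE_incE, map_zero,
      add_zero, hu1]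
    rfl
  · intro x
    rw [zero_smul, add_zero]
    refine Tw.ext_snd hH0 ha ((((Tw_sP H j).comp1 t1).add (t1.comp2 (Tw_sP H _))).add
      (t2.comp1 ((Tw_incE n).comp1 (Tw_prE (n + 1))))) (fun x => ?_) x
    have e1 := hβ x
    have e2 := hκ' (prE (n + 1) x)
    have e3 := hρ2 (β (prE (n + 1) x))
    simp only [LinearMap.add_apply, LinearMap.comp_apply, Prod.snd_add, sP_snd, toInd_snd, u',
      map_add, prE_s] at e1 e2 ⊢
    change α x = _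
    linear_combination (norm := abel) - e1 - e2 - e3 - aa k (sT H (j + 1) (u1 x)) -
      aa k (u1 (sP H (n + 1) x)) - aa k (κ' (incE n (prE (n + 1) x)))

theorem hS_V0 (hX : X.BData) (n : ℕ) (f : X.P (n + 1) →ₗ[X.R] V X 0) : f = 0 := by
  refine LinearMap.ext fun x => Prod.ext ?_ (Subsingleton.elim _ _)
  exact LinearMap.congr_fun (hX.hS n (LinearMap.fst _ _ _ ∘ₗ f)) x

theorem zV0 (v : V X 0) : zV 0 v = 0 := rfl

theorem sV0 (v : V X 0) : sV H 0 v = v := rfl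

theorem to_V0 (hX : X.BData) {c : k} {n : ℕ} {a : PP X n →ₗ[X.R] V X 0}
    (ha : Tw c (zP n) (zV 0) a) :
    (∀ v, a (incE n v) = 0) ∧ ∀ x, a (sP H n x) = H ^ n • a x := by
  have e : ∀ x : PP X n, a x = (a ∘ₗ LinearMap.inl _ _ _) x.1 := by
    intro x
    have e1 : x = (x.1, 0) + zP n (x.2, 0) := by simp
    conv_lhs => rw [e1, map_add, ha, zV0, smul_zero, add_zero]
    rfl
  constructor
  · intro v
    rw [e, incE_fst, β_δ (hS_V0 hX)]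
  · intro x
    rw [e, e x, sP_fst, β_r H (hS_V0 hX)]

theorem h_V0 (hX : X.BData) (hH : ∀ n : ℕ, 1 + H ^ (n + 1) ≠ 0) {n : ℕ}
    {h : V X (n + 1) →ₗ[X.R] V X 0} {a : PP X n →ₗ[X.R] V X 0}
    (hh : Tw (1 : k) (zV _) (zV 0) h) (ha : Tw H (zP _) (zV 0) a)
    (hc : ∀ v, sV H 0 (h v) + h (sV H _ v) = a (incE _ v)) (v : V X (n + 1)) : h v = 0 := by
  obtain ⟨x, rfl⟩ := prE_surj _ v
  have e1 := (to_V0 (H := H) hX (hh.comp1 (Tw_prE _))).2 x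
  have e2 := hc (prE _ x)
  rw [LinearMap.comp_apply, LinearMap.comp_apply, prE_s] at e1
  rw [(to_V0 (H := H) hX ha).1, e1, sV0] at e2
  have : (1 + H ^ (n + 1)) • h (prE _ x) = 0 := by rw [add_smul, one_smul, e2]
  exact (smul_eq_zero.1 this).resolve_left (hH n)

theorem cocL_zero [CharP k 2] (hX : X.BData) (hH : ∀ n : ℕ, 1 + H ^ (n + 1) ≠ 0) :
    CocL (X := X) H 0 0 (sV H 0) := by
  intro h a hh ha hc
  obtain ⟨ψ, hψ⟩ := desc (exactE 0) (prE_surj 0) a (to_V0 (H := H) hX ha).1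
  obtain ⟨c, hc'⟩ := end_Y0 hX (LinearMap.fst _ _ _ ∘ₗ ψ ∘ₗ LinearMap.inl _ _ _)
  refine ⟨c, 0, 0, Tw.zero _ _ _, Tw.zero _ _ _, fun v => (h_V0 hX hH hh ha hc v).symm,
    fun x => ?_⟩
  rw [← hψ]
  refine Prod.ext ?_ (Subsingleton.elim _ _)
  have e : prE 0 x = ((prE 0 x).1, 0) := Prod.ext rfl (Subsingleton.elim _ _)
  have := hc' (prE 0 x).1
  simp only [LinearMap.comp_apply, LinearMap.inl_apply, LinearMap.fst_apply, ← e] at this
  simp [this]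

theorem cocE_zero (hX : X.BData) (hH : ∀ n : ℕ, 1 + H ^ (n + 1) ≠ 0) (n : ℕ) :
    CocE (X := X) H n (zV 0) (sV H 0) 0 := by
  intro h a hh ha hc
  refine ⟨0, (1 + H ^ (n + 1))⁻¹ • a, 0, fun x => ?_, Tw.zero _ _ _, fun v => ?_, fun x => ?_⟩
  · simp [ha x, zV0, -zI_apply]
  · simp [(to_V0 (H := H) hX ha).1, h_V0 hX hH hh ha hc v]
  · simp only [LinearMap.smul_apply, (to_V0 (H := H) hX ha).2, sV0, LinearMap.zero_apply,
      add_zero, smul_zero, smul_smul]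
    rw [← add_smul, ← mul_one_add, inv_mul_cancel₀ (hH n), one_smul]

theorem shift [CharP k 2] (hH0 : H ≠ 0) (hH : ∀ n : ℕ, 1 + H ^ (n + 1) ≠ 0) {n j : ℕ}
    {gen : V X n →ₗ[X.R] V X j} {gen' : V X (n + 1) →ₗ[X.R] V X (j + 1)}
    (G : PP X n →ₗ[X.R] PP X j) (hG : Tw H (zP n) (zP j) G)
    (hG1 : ∀ x, prE j (G x) = gen (prE n x)) (hG2 : ∀ v, G (incE n v) = incE j (gen' v))
    (hL : CocL H n j gen) : CocE H n (zV (j + 1)) (sV H (j + 1)) gen' := by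
  intro h a hh ha hc
  obtain ⟨c0, h1, a1, th1, ta1, e1, e2⟩ := cocE_ind hH0 hH n j (incE j ∘ₗ h) (incE j ∘ₗ a)
    ((Tw_incE j).comp1 hh) ((Tw_incE j).comp2 ha) (fun v => by
      simp only [LinearMap.comp_apply, ← incE_s, ← map_add, hc])
  simp only [LinearMap.comp_apply, LinearMap.zero_apply, smul_zero, add_zero] at e1 e2
  obtain ⟨g, hg⟩ := desc (exactE (n + 1)) (prE_surj (n + 1)) (prE j ∘ₗ h1) (fun v => by
    rw [LinearMap.comp_apply, e1, prE_incE])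
  have tg : Tw (1 : k) (zV _) (zV _) g :=
    Tw.of_surj (prE_surj _) (Tw_prE _) ((Tw_prE j).comp1 th1) hg
  simp only [LinearMap.comp_apply] at hg
  obtain ⟨c, h2, b, th2, tb, e3, e4⟩ := hL g (prE j ∘ₗ a1) tg ((Tw_prE j).comp2 ta1) (fun v => by
    obtain ⟨x, rfl⟩ := prE_surj _ v
    have e := congrArg (prE j) (e2 x)
    rw [prE_incE, map_add, map_add, prE_s, ← hg, ← hg, prE_s] at e
    rw [LinearMap.comp_apply]
    linear_combination (norm := abel) - e - aa k (prE j (a1 (incE n (prE (n + 1) x)))))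
  simp only [LinearMap.comp_apply] at e4
  obtain ⟨h2', th2', e5⟩ := liftInd (zP_zP j) (prE_surj j) (Tw_prE j) h2 th2
  obtain ⟨h', e6⟩ := corestr (exactE j) (incE_inj j) (h1 + h2' ∘ₗ incE n ∘ₗ prE (n + 1))
    (fun x => by
      simp only [LinearMap.add_apply, LinearMap.comp_apply, map_add, e5, e3, hg]
      exact aa k _)
  obtain ⟨a', e7⟩ := corestr (exactE j) (incE_inj j)
    (a1 + sP H j ∘ₗ h2' + h2' ∘ₗ sP H n + b ∘ₗ prE n + c • G) (fun x => by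
      simp only [LinearMap.add_apply, LinearMap.comp_apply, LinearMap.smul_apply, map_add,
        LinearMap.map_smul_of_tower, prE_s, e5, hG1]
      linear_combination (norm := abel) aa k (prE j (a1 x)) - e4 x)
  refine ⟨c, h', a', Tw.of_inj (incE_inj j) (Tw_incE j)
    (th1.add (th2'.comp1 ((Tw_incE n).comp1 (Tw_prE _)))) e6,
    Tw.of_inj (incE_inj j) (Tw_incE j) ((((ta1.add ((Tw_sP H j).comp1 th2')).add
      (th2'.comp2 (Tw_sP H n))).add (tb.comp1 (Tw_prE n))).add (hG.smul c)) e7,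
    fun v => incE_inj j ?_, fun x => incE_inj j ?_⟩
  · simp [e6, e1, prE_incE]
  · simp only [map_add, LinearMap.map_smul_of_tower, incE_s, e6, e7, e2, LinearMap.add_apply,
      LinearMap.comp_apply, LinearMap.smul_apply, prE_incE, map_zero, add_zero, prE_s, hG2]
    linear_combination (norm := abel) - aa k (sP H j (h2' (incE n (prE (n + 1) x)))) -
      aa k (h2' (sP H n (incE n (prE (n + 1) x)))) - aa k (c • incE j (gen' (prE (n + 1) x)))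

theorem cocL_diag [CharP k 2] (hX : X.BData) (hH0 : H ≠ 0) (hH : ∀ n : ℕ, 1 + H ^ (n + 1) ≠ 0) :
    ∀ j, CocL (X := X) H j j (sV H j)
  | 0 => cocL_zero hX hH
  | j + 1 => (shift hH0 hH (sP H j) (Tw_sP H j) (prE_s H j) (fun v => (incE_s H j v).symm)
      (cocL_diag hX hH0 hH j)).toL

theorem cocL_off [CharP k 2] (hX : X.BData) (hH0 : H ≠ 0) (hH : ∀ n : ℕ, 1 + H ^ (n + 1) ≠ 0)
    (n : ℕ) : ∀ j, CocL (X := X) H (n + 1 + j) j 0
  | 0 => (cocE_zero hX hH n).toL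
  | j + 1 => (shift hH0 hH 0 (Tw.zero _ _ _) (by simp) (by simp) (cocL_off hX hH0 hH n j)).toL

theorem cocE_diag [CharP k 2] (hX : X.BData) (hH0 : H ≠ 0) (hH : ∀ n : ℕ, 1 + H ^ (n + 1) ≠ 0) :
    CocE (X := X) H 5 (zV 6) (sV H 6) (sV H 6) :=
  shift hH0 hH (sP H 5) (Tw_sP H 5) (prE_s H 5) (fun v => (incE_s H 5 v).symm)
    (cocL_diag hX hH0 hH 5)

theorem cocE_off [CharP k 2] (hX : X.BData) (hH0 : H ≠ 0) (hH : ∀ n : ℕ, 1 + H ^ (n + 1) ≠ 0)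
    (n : ℕ) : CocE (X := X) H (n + 6) (zV 6) (sV H 6) 0 :=
  shift hH0 hH 0 (Tw.zero _ _ _) (by simp) (by simp) (cocL_off hX hH0 hH n 5)

theorem h1B [CharP k 2] (hX : X.BData) (hH0 : H ≠ 0) (hH : ∀ n : ℕ, 1 + H ^ (n + 1) ≠ 0) (n : ℕ)
    (h : V X (n + 7) →ₗ[X.R] V X 6) (a : PP X (n + 6) →ₗ[X.R] V X 6)
    (hh : Tw (1 : k) (zV _) (zV _) h) (ha : Tw H (zP _) (zV _) a)
    (hc : ∀ v, sV H 6 (h v) + h (sV H _ v) = a (incE _ v)) :
    ∃ h' : PP X (n + 6) →ₗ[X.R] V X 6, Tw (1 : k) (zP _) (zV _) h' ∧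
      ∀ v, h' (incE _ v) = h v := by
  rcases n with _ | n
  · obtain ⟨-, h', -, t, -, e, -⟩ := cocE_diag hX hH0 hH h a hh ha hc
    exact ⟨h', t, e⟩
  · obtain ⟨-, h', -, t, -, e, -⟩ := cocE_off hX hH0 hH n h a hh ha hc
    exact ⟨h', t, e⟩

theorem h2aux [CharP k 2] {n : ℕ} {gen : V X (n + 1) →ₗ[X.R] V X 6}
    (hE : CocE H n (zV 6) (sV H 6) gen) (a : V X (n + 1) →ₗ[X.R] V X 6)
    (ha : Tw H (zV _) (zV _) a) :
    ∃ (c : k) (h : V X (n + 1) →ₗ[X.R] V X 6) (a' : PP X n →ₗ[X.R] V X 6),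
      Tw (1 : k) (zV _) (zV _) h ∧ Tw H (zP _) (zV _) a' ∧
      ∀ v, a v = sV H 6 (h v) + h (sV H _ v) + a' (incE n v) + c • gen v := by
  obtain ⟨c, h', a', t1, t2, e1, e2⟩ := hE 0 (a ∘ₗ prE (n + 1)) (Tw.zero _ _ _)
    (ha.comp1 (Tw_prE _)) (fun v => by simp [prE_incE])
  obtain ⟨h, hh⟩ := desc (exactE (n + 1)) (prE_surj (n + 1)) h' e1
  refine ⟨c, h, a', Tw.of_surj (prE_surj _) (Tw_prE _) t1 hh, t2, fun v => ?_⟩
  obtain ⟨x, rfl⟩ := prE_surj _ v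
  rw [← prE_s, hh, hh]
  exact e2 x

end Vale.Agent.P195.E
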