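import Vale.Agent.P195.E.Cone

namespace Vale.Agent.P195.E

open Module TrivSqZeroExt

variable {k : Type} [Field k]

section
variable (B : Type) [Ring B]

abbrev EE : Type := TrivSqZeroExt B B

/-- a `B`-module with a square-zero operator -/
structure ZD (M : Type) [AddCommGroup M] [Module B M] where
  z : M →ₗ[B] M
  zz : ∀ x, z (z x) = 0

variable {B} {M : Type} [AddCommGroup M] [Module B M]

/-- the underlying type, to be seen as a module over the dual numbers -/
def ZD.Mod (_ : ZD B M) : Type := M

instance (Z : ZD B M) : AddCommGroup Z.Mod := inferInstanceAs (AddCommGroup M)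
instance (Z : ZD B M) : Module B Z.Mod := inferInstanceAs (Module B M)
instance (Z : ZD B M) [Module k M] : Module k Z.Mod := inferInstanceAs (Module k M)
instance (Z : ZD B M) [Algebra k B] [Module k M] [IsScalarTower k B M] :
    IsScalarTower k B Z.Mod := inferInstanceAs (IsScalarTower k B M)

/-- the operator on the synonym -/
def ZD.op (Z : ZD B M) : Z.Mod →ₗ[B] Z.Mod := Z.z

theorem ZD.op_op (Z : ZD B M) (x : Z.Mod) : Z.op (Z.op x) = 0 := Z.zz x

instance (Z : ZD B M) : SMul (EE B) Z.Mod := ⟨fun e x => e.fst • x + e.snd • Z.op x⟩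

theorem ZD.smul_def (Z : ZD B M) (e : EE B) (x : Z.Mod) :
    e • x = e.fst • x + e.snd • Z.op x := rfl

instance (Z : ZD B M) : Module (EE B) Z.Mod where
  one_smul x := by simp [ZD.smul_def]
  mul_smul a b x := by
    simp only [ZD.smul_def, fst_mul, snd_mul, smul_eq_mul, MulOpposite.smul_eq_mul_unop,
      MulOpposite.unop_op, map_add, map_smul, ZD.op_op, smul_zero, add_zero, smul_add, add_smul,
      mul_smul]
    abel
  smul_zero a := by simp [ZD.smul_def]
  smul_add a x y := by simp only [ZD.smul_def, map_add, smul_add]; abel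
  add_smul a b x := by simp only [ZD.smul_def, fst_add, snd_add, add_smul]; abel
  zero_smul x := by simp [ZD.smul_def]

instance (Z : ZD B M) [Algebra k B] [Module k M] [IsScalarTower k B M] :
    IsScalarTower k (EE B) Z.Mod where
  smul_assoc c e x := by simp [ZD.smul_def, smul_assoc]

/-- compatibility of a module over the dual numbers with a `B`-module with operator -/
def Cmp {N : Type} [AddCommGroup N] [Module B N] [Module (EE B) N] (z : N →ₗ[B] N) : Prop :=
  ∀ (e : EE B) (x : N), e • x = e.fst • x + e.snd • z x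

theorem ZD.cmp (Z : ZD B M) : Cmp Z.op := Z.smul_def

/-- the operator on the dual numbers themselves -/
def zE (B : Type) [Ring B] : EE B →ₗ[B] EE B := zI B B

theorem cmpE : Cmp (zE B) := fun e x => by
  ext
  · change e.fst * x.fst = e.fst * x.fst + e.snd * 0
    simp
  · change e.fst * x.snd + e.snd * x.fst = e.fst * x.snd + e.snd * x.fst
    rfl

variable [Algebra k B]

/-- the automorphism `z ↦ H z` -/
noncomputable def σE (B : Type) [Ring B] [Algebra k B] {H : k} (hH : H ≠ 0) : EE B ≃ₐ[k] EE B where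
  toFun e := inl e.fst + inr (H • e.snd)
  invFun e := inl e.fst + inr (H⁻¹ • e.snd)
  left_inv e := by ext <;> simp [smul_smul, hH]
  right_inv e := by ext <;> simp [smul_smul, hH]
  map_mul' a b := by ext <;> simp [snd_mul]
  map_add' a b := by ext <;> simp
  commutes' c := by ext <;> simp [algebraMap_eq_inl']

theorem σE_fst {H : k} (hH : H ≠ 0) (e : EE B) : (σE B hH e).fst = e.fst := by simp [σE]
theorem σE_snd {H : k} (hH : H ≠ 0) (e : EE B) : (σE B hH e).snd = H • e.snd := by simp [σE]

abbrev SE (B : Type) [Ring B] : Set (EE B) := Set.range (inl : B → EE B)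

variable {N N' : Type} [AddCommGroup N] [Module B N] [Module (EE B) N] [Module k N]
  [IsScalarTower k B N] [AddCommGroup N'] [Module B N'] [Module (EE B) N'] [Module k N']
  [IsScalarTower k B N'] {z : N →ₗ[B] N} {z' : N' →ₗ[B] N'}

theorem Cmp.inl_smul (h : Cmp z) (b : B) (x : N) : (inl b : EE B) • x = b • x := by
  simp [h _ x]

theorem Cmp.eps_smul (h : Cmp z) (x : N) : (inr 1 : EE B) • x = z x := by
  simp [h _ x]

theorem toB (h : Cmp z) (h' : Cmp z') (f : N →ₗ[k] N') (hf : BLin (SE B) f) :
    ∃ g : N →ₗ[B] N', ∀ x, g x = f x :=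
  ⟨{ toFun := f
     map_add' := f.map_add
     map_smul' := fun b x => by
      rw [← h.inl_smul, hf _ ⟨b, rfl⟩, h'.inl_smul]; rfl }, fun _ => rfl⟩

theorem ofB (h : Cmp z) (h' : Cmp z') (g : N →ₗ[B] N') : BLin (SE B) (g.restrictScalars k) := by
  rintro _ ⟨b, rfl⟩ x
  rw [h.inl_smul, h'.inl_smul]
  exact g.map_smul b x

theorem toBE (h : Cmp z) (h' : Cmp z') (f : N →ₗ[EE B] N') :
    ∃ g : N →ₗ[B] N', Tw (1 : k) z z' g ∧ ∀ x, g x = f x :=
  ⟨{ toFun := f
     map_add' := f.map_add
     map_smul' := fun b x => by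
      rw [← h.inl_smul, f.map_smul, h'.inl_smul]; rfl }, fun x => by
    change f (z x) = (1 : k) • z' (f x)
    rw [← h.eps_smul, f.map_smul, h'.eps_smul, one_smul], fun _ => rfl⟩

/-- a `B`-linear map commuting with the operators is linear over the dual numbers -/
def ofBE (h : Cmp z) (h' : Cmp z') (g : N →ₗ[B] N') (hg : Tw (1 : k) z z' g) : N →ₗ[EE B] N' where
  toFun := g
  map_add' := g.map_add
  map_smul' e x := by rw [h, map_add, map_smul, map_smul, hg, one_smul, RingHom.id_apply, h']

theorem toBS {H : k} (hH : H ≠ 0) (h : Cmp z) (h' : Cmp z') (f : N →ₗ[k] N')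
    (hf : Semi (σE B hH) f) : ∃ g : N →ₗ[B] N', Tw H z z' g ∧ ∀ x, g x = f x :=
  ⟨{ toFun := f
     map_add' := f.map_add
     map_smul' := fun b x => by
      rw [← h.inl_smul, hf, h', σE_fst, σE_snd]; simp }, fun x => by
    change f (z x) = H • z' (f x)
    rw [← h.eps_smul, hf, h', σE_fst, σE_snd]; simp, fun _ => rfl⟩

theorem ofBS {H : k} (hH : H ≠ 0) (h : Cmp z) (h' : Cmp z') (g : N →ₗ[B] N')
    (hg : Tw H z z' g) : Semi (σE B hH) (g.restrictScalars k) := fun e x => by
  rw [h, h', σE_fst, σE_snd, LinearMap.restrictScalars_apply, LinearMap.restrictScalars_apply,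
    map_add, map_smul, map_smul, hg, smul_comm, smul_assoc]

end

/-- the induced module -/
def indZ (B Q : Type) [Ring B] [AddCommGroup Q] [Module B Q] : ZD B (Q × Q) :=
  ⟨zI B Q, fun _ => rfl⟩

theorem ind_proj {B Q : Type} [Ring B] [AddCommGroup Q] [Module B Q] [Module.Projective B Q]
    [Module.Finite B Q] : Module.Projective (EE B) (indZ B Q).Mod := by
  obtain ⟨n, x, l, hl⟩ := exists_dual_basis B Q
  let i : (indZ B Q).Mod →ₗ[EE B] (Fin n → EE B) :=
    { toFun := fun (u : Q × Q) j => inl (l j u.1) + inr (l j u.2)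
      map_add' := fun (a b : Q × Q) => by
        change (fun j => (inl (l j (a.1 + b.1)) + inr (l j (a.2 + b.2)) : EE B)) = _
        ext j <;> simp
      map_smul' := fun e (a : Q × Q) => by
        change (fun j => (inl (l j (e.fst • a.1 + e.snd • 0)) +
          inr (l j (e.fst • a.2 + e.snd • a.1)) : EE B)) = _
        ext j <;> simp [snd_mul] }
  let s : (Fin n → EE B) →ₗ[EE B] (indZ B Q).Mod :=
    Fintype.linearCombination (EE B) fun j => ((x j, 0) : Q × Q)
  refine Module.Projective.of_split i s (LinearMap.ext fun (u : Q × Q) => ?_)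
  have e : ∀ j, ((inl (l j u.1) + inr (l j u.2) : EE B) • (show (indZ B Q).Mod from (x j, 0))) =
      ((l j u.1 • x j, l j u.2 • x j) : Q × Q) := by
    intro j
    rw [ZD.smul_def]
    change ((inl (l j u.1) + inr (l j u.2) : EE B).fst • ((x j, 0) : Q × Q) +
      (inl (l j u.1) + inr (l j u.2) : EE B).snd • ((0, x j) : Q × Q)) = _
    simp
  change ∑ j, ((inl (l j u.1) + inr (l j u.2) : EE B) • (show (indZ B Q).Mod from (x j, 0))) = u
  simp only [e]
  change (∑ j, ((l j u.1 • x j, l j u.2 • x j) : Q × Q)) = u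
  exact Prod.ext (by simp [Prod.fst_sum, hl]) (by simp [Prod.snd_sum, hl])

end Vale.Agent.P195.E
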