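import Vale.Agent.P195.Basic

namespace Vale.Agent.P195.E

open Module

variable {k : Type} [Field k]

theorem aa (k : Type) [Field k] [CharP k 2] {M : Type} [AddCommGroup M] [Module k M] (x : M) :
    x + x = 0 := by
  have h : (2 : k) = 0 := CharP.cast_eq_zero k 2
  rw [← two_smul k x, h, zero_smul]

/-- bundled finitely generated projective modules -/
structure FP (k B : Type) [Field k] [Ring B] [Algebra k B] : Type 1 where
  M : Type
  [a : AddCommGroup M]
  [mB : Module B M]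
  [mk' : Module k M]
  [tw : IsScalarTower k B M]
  [proj : Module.Projective B M]
  [fin : Module.Finite B M]

attribute [instance] FP.a FP.mB FP.mk' FP.tw FP.proj FP.fin

variable (X : Pack k)

def TT : ℕ → FP k X.R
  | 0 => { M := PUnit }
  | n + 1 => { M := X.P n × (TT n).M }

abbrev T (n : ℕ) : Type := (TT X n).M

instance : Subsingleton (T X 0) := inferInstanceAs (Subsingleton PUnit)

instance (n : ℕ) : FiniteDimensional k (T X n) := Module.Finite.trans X.R (T X n)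

variable {X}

def hd (n : ℕ) : T X (n + 1) →ₗ[X.R] X.P n := LinearMap.fst X.R (X.P n) (T X n)
def tl (n : ℕ) : T X (n + 1) →ₗ[X.R] T X n := LinearMap.snd X.R (X.P n) (T X n)

def pair {M : Type} [AddCommGroup M] [Module X.R M] {n : ℕ} (f : M →ₗ[X.R] X.P n)
    (g : M →ₗ[X.R] T X n) : M →ₗ[X.R] T X (n + 1) := LinearMap.prod f g

@[simp] theorem hd_pair {M : Type} [AddCommGroup M] [Module X.R M] {n : ℕ} (f : M →ₗ[X.R] X.P n)
    (g : M →ₗ[X.R] T X n) (x : M) : hd n (pair f g x) = f x := rfl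

@[simp] theorem tl_pair {M : Type} [AddCommGroup M] [Module X.R M] {n : ℕ} (f : M →ₗ[X.R] X.P n)
    (g : M →ₗ[X.R] T X n) (x : M) : tl n (pair f g x) = g x := rfl

theorem T_ext {n : ℕ} {x y : T X (n + 1)} (h1 : hd n x = hd n y) (h2 : tl n x = tl n y) : x = y :=
  Prod.ext h1 h2

def in1 (n : ℕ) : X.P n →ₗ[X.R] T X (n + 1) := pair LinearMap.id 0
def in2 (n : ℕ) : T X n →ₗ[X.R] T X (n + 1) := pair 0 LinearMap.id

@[simp] theorem hd_in1 (n : ℕ) (x : X.P n) : hd n (in1 n x) = x := rfl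
@[simp] theorem tl_in1 (n : ℕ) (x : X.P n) : tl n (in1 n x) = 0 := rfl
@[simp] theorem hd_in2 (n : ℕ) (x : T X n) : hd n (in2 n x) = 0 := rfl
@[simp] theorem tl_in2 (n : ℕ) (x : T X n) : tl n (in2 n x) = x := rfl

theorem T_decomp {n : ℕ} (x : T X (n + 1)) : x = in1 n (hd n x) + in2 n (tl n x) :=
  T_ext (by simp) (by simp)

variable (X) in
abbrev V (n : ℕ) : Type := X.Y n × T X n

/-- `π (a, t) = (pr a, t)` -/
def π (n : ℕ) : T X (n + 1) →ₗ[X.R] V X n := (X.pr n ∘ₗ hd n).prod (tl n)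

@[simp] theorem π_fst (n : ℕ) (u : T X (n + 1)) : (π n u).1 = X.pr n (hd n u) := rfl
@[simp] theorem π_snd (n : ℕ) (u : T X (n + 1)) : (π n u).2 = tl n u := rfl

theorem π_surj (n : ℕ) : Function.Surjective (π (X := X) n) := by
  rintro ⟨y, t⟩
  obtain ⟨a, rfl⟩ := X.pr_surj n y
  exact ⟨in1 n a + in2 n t, Prod.ext (by simp) (by simp)⟩

def δ : (n : ℕ) → V X n →ₗ[X.R] T X n
  | 0 => 0
  | n + 1 => pair (X.inc n ∘ₗ LinearMap.fst _ _ _) (δ n ∘ₗ π n ∘ₗ LinearMap.snd _ _ _)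

@[simp] theorem hd_δ (n : ℕ) (v : V X (n + 1)) : hd n (δ (n + 1) v) = X.inc n v.1 := rfl
@[simp] theorem tl_δ (n : ℕ) (v : V X (n + 1)) : tl n (δ (n + 1) v) = δ n (π n v.2) := rfl

@[simp] theorem pr_inc (n : ℕ) (y : X.Y (n + 1)) : X.pr n (X.inc n y) = 0 :=
  (X.exact n _).2 ⟨y, rfl⟩

def zV (n : ℕ) : V X n →ₗ[X.R] V X n := LinearMap.inr _ _ _ ∘ₗ δ n

@[simp] theorem zV_fst (n : ℕ) (v : V X n) : (zV n v).1 = 0 := rfl
@[simp] theorem zV_snd (n : ℕ) (v : V X n) : (zV n v).2 = δ n v := rfl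

theorem π_δ (n : ℕ) (v : V X (n + 1)) : π n (δ (n + 1) v) = zV n (π n v.2) :=
  Prod.ext (by simp) (by simp)

theorem δ_z : ∀ (n : ℕ) (v : V X n), δ n (zV n v) = 0
  | 0, _ => rfl
  | n + 1, v => T_ext (by simp) (by simp [π_δ, δ_z n])

theorem zV_zV (n : ℕ) (v : V X n) : zV n (zV n v) = 0 := Prod.ext (by simp) (by simp [δ_z])

variable (H : k)

def sT : (n : ℕ) → T X n →ₗ[X.R] T X n
  | 0 => LinearMap.id
  | n + 1 => H • pair (hd n) (sT n ∘ₗ tl n)

def r (n : ℕ) : T X (n + 1) →ₗ[X.R] T X (n + 1) := pair (hd n) (sT H n ∘ₗ tl n)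

theorem sT_succ (n : ℕ) (u : T X (n + 1)) : sT H (n + 1) u = H • r H n u := rfl

@[simp] theorem hd_r (n : ℕ) (u : T X (n + 1)) : hd n (r H n u) = hd n u := rfl
@[simp] theorem tl_r (n : ℕ) (u : T X (n + 1)) : tl n (r H n u) = sT H n (tl n u) := rfl

def sV (n : ℕ) : V X n →ₗ[X.R] V X n := LinearMap.prodMap LinearMap.id (sT H n)

@[simp] theorem sV_fst (n : ℕ) (v : V X n) : (sV H n v).1 = v.1 := rfl
@[simp] theorem sV_snd (n : ℕ) (v : V X n) : (sV H n v).2 = sT H n v.2 := rfl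

theorem π_r (n : ℕ) (u : T X (n + 1)) : π n (r H n u) = sV H n (π n u) :=
  Prod.ext (by simp) (by simp)

theorem sT_δ : ∀ (n : ℕ) (v : V X n), sT H n (δ n v) = H • δ n (sV H n v)
  | 0, _ => Subsingleton.elim _ _
  | n + 1, v => T_ext (by simp [sT_succ]) (by simp [sT_succ, sT_δ n, π_r])

theorem r_δ (n : ℕ) (v : V X (n + 1)) : r H n (δ (n + 1) v) = δ (n + 1) (sV H (n + 1) v) :=
  T_ext (by simp) (by simp [sT_succ, sT_δ, π_r])

theorem sV_zV (n : ℕ) (v : V X n) : sV H n (zV n v) = H • zV n (sV H n v) :=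
  Prod.ext (by simp) (by simp [sT_δ])

theorem exists_inv (hH : ∀ n : ℕ, 1 + H ^ (n + 1) ≠ 0) : ∀ (n i : ℕ),
    ∃ ρ : T X n →ₗ[X.R] T X n, (∀ t, ρ (t + H ^ i • sT H n t) = t) ∧
      ∀ t, ρ t + H ^ i • sT H n (ρ t) = t
  | 0, _ => ⟨0, fun _ => Subsingleton.elim _ _, fun _ => Subsingleton.elim _ _⟩
  | n + 1, i => by
    obtain ⟨ρ, h1, h2⟩ := exists_inv hH n (i + 1)
    refine ⟨pair ((1 + H ^ (i + 1))⁻¹ • hd n) (ρ ∘ₗ tl n), fun t => T_ext ?_ ?_,
      fun t => T_ext ?_ ?_⟩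
    · simp only [hd_pair, LinearMap.smul_apply, map_add, LinearMap.map_smul_of_tower, sT_succ,
        hd_r, smul_smul, ← pow_succ]
      rw [← add_smul, ← one_add_mul, mul_inv_cancel₀ (hH i), one_smul]
    · simp only [tl_pair, LinearMap.comp_apply, map_add (tl n), LinearMap.map_smul_of_tower (tl n),
        sT_succ, tl_r, smul_smul, ← pow_succ]
      exact h1 _
    · simp only [hd_pair, LinearMap.smul_apply, map_add, LinearMap.map_smul_of_tower, sT_succ,
        hd_r, smul_smul, ← mul_assoc, ← pow_succ]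
      rw [← add_smul, ← one_add_mul, mul_inv_cancel₀ (hH i), one_smul]
    · simp only [tl_pair, LinearMap.comp_apply, map_add, LinearMap.map_smul_of_tower,
        sT_succ, tl_r, smul_smul, ← pow_succ]
      exact h2 _

section
variable {N : Type} [AddCommGroup N] [Module X.R N] [Module k N] [IsScalarTower k X.R N]

theorem inc_zero (hN : ∀ (n : ℕ) (f : X.P (n + 1) →ₗ[X.R] N), f = 0) (n : ℕ)
    (β : X.P n →ₗ[X.R] N) (y : X.Y (n + 1)) : β (X.inc n y) = 0 := by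
  obtain ⟨a, rfl⟩ := X.pr_surj _ y
  exact LinearMap.congr_fun (hN n (β ∘ₗ X.inc n ∘ₗ X.pr (n + 1))) a

theorem β_δ (hN : ∀ (n : ℕ) (f : X.P (n + 1) →ₗ[X.R] N), f = 0) :
    ∀ (n : ℕ) (β : T X n →ₗ[X.R] N) (v : V X n), β (δ n v) = 0
  | 0, β, v => map_zero β
  | n + 1, β, v => by
    rw [T_decomp (δ (n + 1) v), map_add, hd_δ, tl_δ]
    have h1 := inc_zero hN n (β ∘ₗ in1 n) v.1
    have h2 := β_δ hN n (β ∘ₗ in2 n) (π n v.2)
    simp only [LinearMap.comp_apply] at h1 h2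
    rw [h1, h2, add_zero]

theorem β_r_aux (hN : ∀ (n : ℕ) (f : X.P (n + 1) →ₗ[X.R] N), f = 0) (n : ℕ)
    (ih : ∀ (β : T X n →ₗ[X.R] N) (t : T X n), β (sT H n t) = H ^ n • β t)
    (β : T X (n + 1) →ₗ[X.R] N) (u : T X (n + 1)) : β (r H n u) = H ^ n • β u := by
  rw [T_decomp (r H n u), map_add, hd_r, tl_r]
  conv_rhs => rw [T_decomp u, map_add, smul_add]
  have h2 := ih (β ∘ₗ in2 n) (tl n u)
  simp only [LinearMap.comp_apply] at h2
  rw [h2]
  congr 1
  cases n with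
  | zero => simp
  | succ n =>
    have := LinearMap.congr_fun (hN n (β ∘ₗ in1 (n + 1))) (hd _ u)
    simp only [LinearMap.comp_apply, LinearMap.zero_apply] at this
    simp [this]

theorem β_sT (hN : ∀ (n : ℕ) (f : X.P (n + 1) →ₗ[X.R] N), f = 0) :
    ∀ (n : ℕ) (β : T X n →ₗ[X.R] N) (t : T X n), β (sT H n t) = H ^ n • β t
  | 0, β, t => by rw [pow_zero, one_smul]; rfl
  | n + 1, β, t => by
    rw [sT_succ, LinearMap.map_smul_of_tower, β_r_aux H hN n (β_sT hN n), smul_smul, ← pow_succ']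

theorem β_r (hN : ∀ (n : ℕ) (f : X.P (n + 1) →ₗ[X.R] N), f = 0) (n : ℕ)
    (β : T X (n + 1) →ₗ[X.R] N) (u : T X (n + 1)) : β (r H n u) = H ^ n • β u :=
  β_r_aux H hN n (β_sT H hN n) β u

end

/-! The induced modules and the resolution, at the level of `B`-modules with operators. -/

variable (X) in
abbrev PP (n : ℕ) : Type := T X (n + 1) × T X (n + 1)

/-- the operator `z` on an induced module -/
def zI (B Q : Type) [Ring B] [AddCommGroup Q] [Module B Q] : Q × Q →ₗ[B] Q × Q :=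
  LinearMap.inr B Q Q ∘ₗ LinearMap.fst B Q Q

@[simp] theorem zI_apply (B Q : Type) [Ring B] [AddCommGroup Q] [Module B Q] (x : Q × Q) :
    zI B Q x = (0, x.1) := rfl

abbrev zP (n : ℕ) : PP X n →ₗ[X.R] PP X n := zI X.R (T X (n + 1))

def sP (n : ℕ) : PP X n →ₗ[X.R] PP X n := LinearMap.prodMap (r H n) (sT H (n + 1))

@[simp] theorem sP_fst (n : ℕ) (x : PP X n) : (sP H n x).1 = r H n x.1 := rfl
@[simp] theorem sP_snd (n : ℕ) (x : PP X n) : (sP H n x).2 = sT H (n + 1) x.2 := rfl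

def prE (n : ℕ) : PP X n →ₗ[X.R] V X n := (π n).coprod (zV n ∘ₗ π n)

theorem prE_apply (n : ℕ) (x : PP X n) : prE n x = π n x.1 + zV n (π n x.2) := rfl

def incE (n : ℕ) : V X (n + 1) →ₗ[X.R] PP X n := (δ (n + 1)).prod (LinearMap.snd _ _ _)

@[simp] theorem incE_fst (n : ℕ) (v : V X (n + 1)) : (incE n v).1 = δ (n + 1) v := rfl
@[simp] theorem incE_snd (n : ℕ) (v : V X (n + 1)) : (incE n v).2 = v.2 := rfl

theorem sP_zP (n : ℕ) (x : PP X n) : sP H n (zP n x) = H • zP n (sP H n x) :=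
  Prod.ext (by simp) (by simp [sT_succ])

theorem prE_z (n : ℕ) (x : PP X n) : prE n (zP n x) = zV n (prE n x) := by
  simp [prE_apply, zV_zV]

theorem incE_z (n : ℕ) (v : V X (n + 1)) : incE n (zV (n + 1) v) = zP n (incE n v) :=
  Prod.ext (by simp [δ_z]) (by simp)

theorem prE_s (n : ℕ) (x : PP X n) : prE n (sP H n x) = sV H n (prE n x) := by
  simp [prE_apply, π_r, sT_succ, sV_zV]

theorem incE_s (n : ℕ) (v : V X (n + 1)) : incE n (sV H (n + 1) v) = sP H n (incE n v) :=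
  Prod.ext (by simp [r_δ]) (by simp)

theorem prE_surj (n : ℕ) : Function.Surjective (prE (X := X) n) := by
  intro v
  obtain ⟨u, rfl⟩ := π_surj n v
  exact ⟨(u, 0), by simp [prE_apply]⟩

theorem incE_inj (n : ℕ) : Function.Injective (incE (X := X) n) := by
  intro v w h
  refine Prod.ext (X.inc_inj n ?_) (congrArg (fun x : PP X n => x.2) h)
  exact congrArg (fun x : PP X n => hd n x.1) h

theorem prE_incE [CharP k 2] (n : ℕ) (v : V X (n + 1)) : prE n (incE n v) = 0 := by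
  rw [prE_apply, incE_fst, incE_snd, π_δ, aa k]

theorem exactE [CharP k 2] (n : ℕ) : Function.Exact (incE (X := X) n) (prE n) := by
  intro x
  constructor
  · intro h
    have h1 : X.pr n (hd n x.1) = 0 := by simpa [prE_apply] using congrArg Prod.fst h
    have h2 : tl n x.1 + δ n (π n x.2) = 0 := by simpa [prE_apply] using congrArg Prod.snd h
    obtain ⟨y, hy⟩ := (X.exact n _).1 h1
    refine ⟨(y, x.2), Prod.ext (T_ext (by simpa using hy) ?_) rfl⟩
    simp only [incE_fst, tl_δ]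
    linear_combination (norm := abel) h2 - aa k (tl n x.1)
  · rintro ⟨v, rfl⟩
    exact prE_incE n v

end Vale.Agent.P195.E
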